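import Vale.Agent.P183.R2.H577.Base

/-! P183: a complete family of orthogonal idempotents of a finite ring refines to local ones. -/

namespace Vale.Agent.P183.H577

namespace H554

variable {R : Type} [Ring R]

/-- the corner of the idempotent `f` is local or zero -/
def Loc (f : R) : Prop := ∀ x, f * x = x → x * f = x →
  (∃ y, f * y = y ∧ y * f = y ∧ x * y = f ∧ y * x = f) ∨
  (∃ y, f * y = y ∧ y * f = y ∧ (f - x) * y = f ∧ y * (f - x) = f)

theorem exists_idem_pow [Finite R] (x : R) : ∃ N : ℕ, 1 ≤ N ∧ x ^ N * x ^ N = x ^ N := by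
  obtain ⟨a, b, hab, h⟩ : ∃ a b : ℕ, a < b ∧ x ^ a = x ^ b := by
    obtain ⟨a, b, hab, h⟩ := Finite.exists_ne_map_eq_of_infinite (fun k : ℕ => x ^ k)
    rcases lt_or_gt_of_ne hab with h1 | h1
    · exact ⟨a, b, h1, h⟩
    · exact ⟨b, a, h1, h.symm⟩
  obtain ⟨p, rfl⟩ : ∃ p, b = a + p := ⟨b - a, by omega⟩
  have hp : 1 ≤ p := by omega
  have h1 : ∀ k : ℕ, x ^ (a + k * p) = x ^ a := by
    intro k
    induction k with
    | zero => rw [zero_mul, add_zero]
    | succ k ih =>
      have : a + (k + 1) * p = (a + k * p) + p := by ring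
      rw [this, pow_add, ih, ← pow_add, ← h]
  have h2 : ∀ n, a ≤ n → ∀ k : ℕ, x ^ (n + k * p) = x ^ n := by
    intro n hn k
    have e1 : n + k * p = (a + k * p) + (n - a) := by omega
    have e2 : n = a + (n - a) := by omega
    rw [e1, pow_add, h1, ← pow_add, ← e2]
  refine ⟨(a + 1) * p, ?_, ?_⟩
  · exact Nat.one_le_iff_ne_zero.mpr (Nat.mul_ne_zero (by omega) (by omega))
  · rw [← pow_add]
    refine h2 _ ?_ _
    calc a ≤ a + 1 := Nat.le_succ a
      _ = (a + 1) * 1 := (mul_one _).symm
      _ ≤ (a + 1) * p := Nat.mul_le_mul_left _ hp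

/-- the splitting step -/
theorem split [Finite R] {e : R} (he : e * e = e) (hl : ¬ Loc e) :
    ∃ g : R, g * g = g ∧ e * g = g ∧ g * e = g ∧ g ≠ 0 ∧ g ≠ e := by
  unfold Loc at hl
  push Not at hl
  obtain ⟨x, hx1, hx2, h1, h2⟩ := hl
  obtain ⟨N, hN, hg⟩ := exists_idem_pow x
  obtain ⟨k, rfl⟩ : ∃ k, N = k + 1 := ⟨N - 1, by omega⟩
  have hl' : e * x ^ (k + 1) = x ^ (k + 1) := by
    rw [pow_succ', ← mul_assoc, hx1]
  have hr' : x ^ (k + 1) * e = x ^ (k + 1) := by
    rw [pow_succ, mul_assoc, hx2]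
  refine ⟨x ^ (k + 1), hg, hl', hr', ?_, ?_⟩
  · -- nilpotent: `e - x` is invertible
    intro h0
    refine h2 (e * (∑ i ∈ Finset.range (k + 1), x ^ i)) ?_ ?_ ?_ ?_
    · rw [← mul_assoc, he]
    · have hc : ∀ i, e * x ^ i * e = e * x ^ i := by
        intro i
        cases i with
        | zero => rw [pow_zero, mul_one, he]
        | succ i => rw [pow_succ, mul_assoc, mul_assoc, hx2]
      rw [Finset.mul_sum, Finset.sum_mul]
      exact Finset.sum_congr rfl fun i _ => hc i
    · have h3 : (1 - x) * ∑ i ∈ Finset.range (k + 1), x ^ i = 1 := by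
        rw [mul_neg_geom_sum, h0, sub_zero]
      have h4 : (e - x) * e = e * (1 - x) := by
        rw [sub_mul, he, hx2, mul_sub, mul_one, hx1]
      rw [← mul_assoc, h4, mul_assoc, h3, mul_one]
    · have h3 : (∑ i ∈ Finset.range (k + 1), x ^ i) * (1 - x) = 1 := by
        rw [geom_sum_mul_neg, h0, sub_zero]
      have hc : ∀ i, e * x ^ i = x ^ i * e := by
        intro i
        cases i with
        | zero => rw [pow_zero, mul_one, one_mul]
        | succ i => rw [pow_succ, mul_assoc, hx2, ← pow_succ, pow_succ', ← mul_assoc, hx1]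
      have h5 : e * (∑ i ∈ Finset.range (k + 1), x ^ i) =
          (∑ i ∈ Finset.range (k + 1), x ^ i) * e := by
        rw [Finset.mul_sum, Finset.sum_mul]
        exact Finset.sum_congr rfl fun i _ => hc i
      have h4 : e * (e - x) = (1 - x) * e := by
        rw [sub_mul, mul_sub, he, hx1, one_mul, hx2]
      rw [h5, mul_assoc, h4, ← mul_assoc, h3, one_mul]
  · -- `x` is invertible in the corner
    intro h0
    refine h1 (e * x ^ k) ?_ ?_ ?_ ?_
    · rw [← mul_assoc, he]
    · cases k with
      | zero => rw [pow_zero, mul_one, he]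
      | succ k => rw [pow_succ, mul_assoc, mul_assoc, hx2]
    · rw [← mul_assoc, hx2, ← pow_succ', h0]
    · rw [mul_assoc, ← pow_succ, h0, he]

theorem one_idem [Finite R] : ∀ (c : ℕ) (e : R), e * e = e →
    Nat.card {x : R // e * x = x ∧ x * e = x} ≤ c →
    ∃ (m : ℕ) (f : Fin m → R), (∀ i, f i * f i = f i) ∧ (∀ i j, i ≠ j → f i * f j = 0) ∧
      ∑ i, f i = e ∧ (∀ j, e * f j = f j ∧ f j * e = f j) ∧ ∀ i, Loc (f i) := by
  intro c
  induction c with
  | zero =>
    intro e he hc
    exfalso
    have h1 : 0 < Nat.card {x : R // e * x = x ∧ x * e = x} :=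
      Nat.card_pos_iff.mpr ⟨⟨⟨e, he, he⟩⟩, inferInstance⟩
    omega
  | succ c ih =>
    intro e he hc
    by_cases hl : Loc e
    · refine ⟨1, fun _ => e, fun _ => he, fun i j hij => absurd (Subsingleton.elim i j) hij,
        by simp, fun _ => ⟨he, he⟩, fun _ => hl⟩
    obtain ⟨g, hgg, heg, hge, hg0, hge'⟩ := split he hl
    have hh : (e - g) * (e - g) = e - g := by
      rw [sub_mul, mul_sub, mul_sub, he, heg, hge, hgg]
      abel
    have hgh : g * (e - g) = 0 := by rw [mul_sub, hge, hgg, sub_self]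
    have hhg : (e - g) * g = 0 := by rw [sub_mul, heg, hgg, sub_self]
    have heh : e * (e - g) = e - g := by rw [mul_sub, he, heg]
    have hhe : (e - g) * e = e - g := by rw [sub_mul, he, hge]
    have key : ∀ u v : R, e * u = u → u * e = u → u * v = 0 → v ≠ 0 → e * v = v → v * e = v →
        Nat.card {x : R // u * x = x ∧ x * u = x} ≤ c := by
      intro u v hu1 hu2 huv hv hv1 hv2
      have h1 : Nat.card {x : R // u * x = x ∧ x * u = x} <
          Nat.card {x : R // e * x = x ∧ x * e = x} := by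
        have hfin : Finite R := inferInstance
        refine Set.ncard_lt_ncard (s := {x : R | u * x = x ∧ x * u = x})
          (t := {x : R | e * x = x ∧ x * e = x}) ?_ (Set.toFinite _)
        refine ⟨fun x hx => ⟨?_, ?_⟩, fun hs => ?_⟩
        · rw [← hx.1, ← mul_assoc, hu1]
        · rw [← hx.2, mul_assoc, hu2]
        · have : v ∈ {x : R | u * x = x ∧ x * u = x} := hs ⟨hv1, hv2⟩
          exact hv (by rw [← this.1, huv])
      omega
    have hne : e - g ≠ 0 := fun h => hge' (sub_eq_zero.mp h).symm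
    obtain ⟨m₁, f₁, a1, a2, a3, a4, a5⟩ := ih g hgg (key g (e - g) heg hge hgh hne heh hhe)
    obtain ⟨m₂, f₂, b1, b2, b3, b4, b5⟩ :=
      ih (e - g) hh (key (e - g) g heh hhe hhg hg0 heg hge)
    have hcross1 : ∀ i j, f₁ i * f₂ j = 0 := by
      intro i j
      rw [← (a4 i).2, ← (b4 j).1, mul_assoc, ← mul_assoc g, hgh, zero_mul, mul_zero]
    have hcross2 : ∀ i j, f₂ j * f₁ i = 0 := by
      intro i j
      rw [← (a4 i).1, ← (b4 j).2, mul_assoc, ← mul_assoc (e - g), hhg, zero_mul, mul_zero]
    refine ⟨m₁ + m₂, Fin.append f₁ f₂, ?_, ?_, ?_, ?_, ?_⟩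
    · intro i
      refine Fin.addCases (fun i => ?_) (fun i => ?_) i
      · rw [Fin.append_left, a1]
      · rw [Fin.append_right, b1]
    · intro i j
      refine Fin.addCases (fun i => ?_) (fun i => ?_) i <;>
        refine Fin.addCases (fun j => ?_) (fun j => ?_) j <;> intro hij
      · rw [Fin.append_left, Fin.append_left]
        exact a2 i j fun h => hij (by rw [h])
      · rw [Fin.append_left, Fin.append_right]
        exact hcross1 i j
      · rw [Fin.append_left, Fin.append_right]
        exact hcross2 j i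
      · rw [Fin.append_right, Fin.append_right]
        exact b2 i j fun h => hij (by rw [h])
    · rw [Fin.sum_univ_add]
      simp only [Fin.append_left, Fin.append_right]
      rw [a3, b3]
      abel
    · intro j
      refine Fin.addCases (fun j => ?_) (fun j => ?_) j
      · rw [Fin.append_left]
        constructor
        · rw [← (a4 j).1, ← mul_assoc, heg]
        · rw [← (a4 j).2, mul_assoc, hge]
      · rw [Fin.append_right]
        constructor
        · rw [← (b4 j).1, ← mul_assoc, heh]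
        · rw [← (b4 j).2, mul_assoc, hhe]
    · intro i
      refine Fin.addCases (fun i => ?_) (fun i => ?_) i
      · rw [Fin.append_left]; exact a5 i
      · rw [Fin.append_right]; exact b5 i

end H554

/-- A complete family of orthogonal idempotents of a finite ring refines to local ones. -/
theorem refine_row {R : Type} [Ring R] [Finite R] {n : ℕ} (e : Fin n → R)
    (he : ∀ i, e i * e i = e i)
    (ho : ∀ i j, i ≠ j → e i * e j = 0) (hs : ∑ i, e i = 1) :
    ∃ (m : ℕ) (f : Fin m → R), (∀ i, f i * f i = f i) ∧ (∀ i j, i ≠ j → f i * f j = 0) ∧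
      ∑ i, f i = 1 ∧ (∀ j, ∃ i, e i * f j = f j ∧ f j * e i = f j) ∧
      (∀ i x, f i * x = x → x * f i = x →
        (∃ y, f i * y = y ∧ y * f i = y ∧ x * y = f i ∧ y * x = f i) ∨
        (∃ y, f i * y = y ∧ y * f i = y ∧ (f i - x) * y = f i ∧ y * (f i - x) = f i)) := by
  choose m f h1 h2 h3 h4 h5 using fun i => H554.one_idem _ (e i) (he i) le_rfl
  let E := Fintype.equivFin (Σ i, Fin (m i))
  refine ⟨_, fun k => f (E.symm k).1 (E.symm k).2, fun k => h1 _ _, ?_, ?_,
    fun k => ⟨_, h4 _ _⟩, fun k => h5 _ _⟩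
  · intro k l hkl
    show f (E.symm k).1 (E.symm k).2 * f (E.symm l).1 (E.symm l).2 = 0
    by_cases h : (E.symm k).1 = (E.symm l).1
    · have hkl' : E.symm k ≠ E.symm l := fun h => hkl (E.symm.injective h)
      revert h hkl'
      generalize E.symm k = u
      generalize E.symm l = v
      obtain ⟨i, a⟩ := u
      obtain ⟨j, b⟩ := v
      intro h hkl'
      obtain rfl : i = j := h
      exact h2 i a b fun h => hkl' (by rw [h])
    · rw [← (h4 _ (E.symm k).2).2, ← (h4 _ (E.symm l).2).1, mul_assoc,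
        ← mul_assoc (e _) (e _), ho _ _ h, zero_mul, mul_zero]
  · rw [Equiv.sum_comp E.symm (fun s : (Σ i, Fin (m i)) => f s.1 s.2), Fintype.sum_sigma]
    simp only [h3]
    exact hs

end Vale.Agent.P183.H577
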